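import Vale.Agent.P245.H607.Cor
import Vale.Agent.P245.H847.Stmt

/-!
P245: the exponential moment bound for log-sum-exps of concave Lipschitz functions
(any number of pieces, no loss in their number; observation of helper441).
-/

open MeasureTheory Real Set Filter

namespace Vale.Agent.P245

/-- sub-Gaussian exponential moments for `Φ = log ∑ exp (t F i)`, where the `F i` are concave and
1-Lipschitz, for any number of functions `F i`: `∫ e^Φ ≤ exp (∫ Φ + C a² t²)`. -/
def SoftmaxConcentration {n : ℕ} (μ : Measure (EuclideanSpace ℝ (Fin n))) (C a : ℝ) : Prop :=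
  ∀ (N : ℕ) (F : Fin N → EuclideanSpace ℝ (Fin n) → ℝ), 0 < N →
    (∀ i, LipschitzWith 1 (F i)) → (∀ i, ConcaveOn ℝ Set.univ (F i)) → ∀ t : ℝ, 0 ≤ t →
      ∫ x, ∑ i, Real.exp (t * F i x) ∂μ ≤
        Real.exp ((∫ x, Real.log (∑ i, Real.exp (t * F i x)) ∂μ) + C * a ^ 2 * t ^ 2)

namespace H588

variable {n : ℕ} {μ : Measure (EuclideanSpace ℝ (Fin n))}

theorem softmax_of [IsProbabilityMeasure μ] {C a : ℝ} (ha : 0 < a)
    (hsub : LinearlySubgaussian μ a) (hC : ConvexConcentration μ C a) :
    SoftmaxConcentration μ C a := by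
  intro N F hN hL hc t ht
  have hint : ∀ i, Integrable (fun x => exp (t * F i x)) μ := by
    intro i
    have h := H607.exp_int ha hsub (F := fun x => -F i x) (hL i).neg t 0
    refine h.congr (Eventually.of_forall fun x => ?_)
    simp only
    congr 1; ring
  have hFi : ∀ i, Integrable (F i) μ := fun i => H607.lip_integrable ha hsub (hL i)
  set Z : Fin N → ℝ := fun i => ∫ x, exp (t * F i x) ∂μ with hZ
  have hZ0 : ∀ i, 0 < Z i := fun i => integral_exp_pos (hint i)
  have hne : (Finset.univ : Finset (Fin N)).Nonempty := ⟨⟨0, hN⟩, Finset.mem_univ _⟩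
  set S : ℝ := ∑ i, Z i with hS
  have hS0 : 0 < S := Finset.sum_pos (fun i _ => hZ0 i) hne
  have e1 : ∫ x, ∑ i, exp (t * F i x) ∂μ = S := by
    rw [integral_finsetSum _ fun i _ => hint i]
  -- the bound for one function
  have h1 : ∀ i, log (Z i) ≤ t * (∫ x, F i x ∂μ) + C * a ^ 2 * t ^ 2 := by
    intro i
    have h := (hC (fun x => -F i x) (hL i).neg (hc i).neg t ht).1
    rw [integral_neg] at h
    have e : Z i = exp (t * ∫ x, F i x ∂μ) *
        ∫ x, exp (-t * (-F i x - -∫ y, F i y ∂μ)) ∂μ := by
      rw [hZ, ← integral_const_mul]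
      simp only
      apply integral_congr_ae
      refine Eventually.of_forall fun x => ?_
      simp only
      rw [← exp_add]; congr 1; ring
    have h2 : Z i ≤ exp (t * (∫ x, F i x ∂μ) + C * a ^ 2 * t ^ 2) := by
      rw [e, exp_add]
      exact mul_le_mul_of_nonneg_left h (exp_pos _).le
    calc log (Z i) ≤ log (exp (t * (∫ x, F i x ∂μ) + C * a ^ 2 * t ^ 2)) :=
          log_le_log (hZ0 i) h2
      _ = _ := log_exp _
  set p : Fin N → ℝ := fun i => Z i / S with hp
  have hp0 : ∀ i, 0 < p i := fun i => div_pos (hZ0 i) hS0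
  have hp1 : ∑ i, p i = 1 := by
    rw [hp, ← Finset.sum_div, div_self hS0.ne']
  -- the pointwise inequality
  have h2 : ∀ x, ∑ i, p i * (t * F i x - log (p i)) ≤ log (∑ i, exp (t * F i x)) := by
    intro x
    set s : ℝ := ∑ i, exp (t * F i x) with hs
    have hs0 : 0 < s := Finset.sum_pos (fun i _ => exp_pos _) hne
    have h3 : ∑ i, p i * (t * F i x - log (p i) - log s) ≤
        ∑ i, (exp (t * F i x) / s - p i) := by
      refine Finset.sum_le_sum fun i _ => ?_
      have h4 : t * F i x - log (p i) - log s + 1 ≤ exp (t * F i x - log (p i) - log s) :=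
        add_one_le_exp _
      rw [exp_sub, exp_sub, exp_log (hp0 i), exp_log hs0] at h4
      have h5 := mul_le_mul_of_nonneg_left h4 (hp0 i).le
      have h6 : p i * (exp (t * F i x) / p i / s) = exp (t * F i x) / s := by
        have := (hp0 i).ne'
        field_simp
      rw [h6] at h5
      linarith
    rw [Finset.sum_sub_distrib, hp1, ← Finset.sum_div, ← hs, div_self hs0.ne'] at h3
    have h7 : ∑ i, p i * (t * F i x - log (p i) - log s) =
        ∑ i, p i * (t * F i x - log (p i)) - log s := by
      have : ∀ i ∈ (Finset.univ : Finset (Fin N)), p i * (t * F i x - log (p i) - log s) =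
          p i * (t * F i x - log (p i)) - p i * log s := fun i _ => by ring
      rw [Finset.sum_congr rfl this, Finset.sum_sub_distrib, ← Finset.sum_mul, hp1, one_mul]
    rw [h7] at h3
    linarith
  have hmeas : AEStronglyMeasurable (fun x => log (∑ i, exp (t * F i x))) μ := by
    refine (Measurable.log ?_).aestronglyMeasurable
    exact Finset.measurable_sum _ fun i _ =>
      measurable_exp.comp (((hL i).continuous.measurable).const_mul t)
  have hlog : Integrable (fun x => log (∑ i, exp (t * F i x))) μ := by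
    have hb : Integrable (fun x => |t * F ⟨0, hN⟩ x| + ∑ i, exp (t * F i x)) μ :=
      ((hFi _).const_mul t).abs.add (integrable_finsetSum _ fun i _ => hint i)
    refine hb.mono' hmeas (Eventually.of_forall fun x => ?_)
    have hs0 : 0 < ∑ i, exp (t * F i x) := Finset.sum_pos (fun i _ => exp_pos _) hne
    have hlow : t * F ⟨0, hN⟩ x ≤ log (∑ i, exp (t * F i x)) := by
      rw [le_log_iff_exp_le hs0]
      exact Finset.single_le_sum (f := fun i => exp (t * F i x)) (fun i _ => (exp_pos _).le)
        (Finset.mem_univ _)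
    have hup : log (∑ i, exp (t * F i x)) ≤ (∑ i, exp (t * F i x)) - 1 :=
      log_le_sub_one_of_pos hs0
    rw [norm_eq_abs, abs_le]
    constructor
    · have := neg_abs_le (t * F ⟨0, hN⟩ x)
      linarith
    · have := abs_nonneg (t * F ⟨0, hN⟩ x)
      linarith
  have hpi : ∀ i, Integrable (fun x => p i * (t * F i x - log (p i))) μ := fun i =>
    ((((hFi i).const_mul t).sub (integrable_const _)).const_mul _)
  have hsumi : Integrable (fun x => ∑ i, p i * (t * F i x - log (p i))) μ :=
    integrable_finsetSum _ fun i _ => hpi i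
  have h3 := integral_mono hsumi hlog h2
  have h4 : ∫ x, ∑ i, p i * (t * F i x - log (p i)) ∂μ =
      ∑ i, p i * (t * (∫ x, F i x ∂μ) - log (p i)) := by
    rw [integral_finsetSum _ fun i _ => hpi i]
    refine Finset.sum_congr rfl fun i _ => ?_
    rw [integral_const_mul, integral_sub ((hFi i).const_mul t) (integrable_const _),
      integral_const_mul, integral_const]
    simp
  have h5 : log S - C * a ^ 2 * t ^ 2 ≤ ∑ i, p i * (t * (∫ x, F i x ∂μ) - log (p i)) := by
    have h6 : ∑ i, p i * (log S - C * a ^ 2 * t ^ 2) ≤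
        ∑ i, p i * (t * (∫ x, F i x ∂μ) - log (p i)) := by
      refine Finset.sum_le_sum fun i _ => mul_le_mul_of_nonneg_left ?_ (hp0 i).le
      have h7 : log (p i) = log (Z i) - log S := log_div (hZ0 i).ne' hS0.ne'
      have := h1 i
      rw [h7]
      linarith
    rwa [← Finset.sum_mul, hp1, one_mul] at h6
  rw [e1]
  have h8 : log S ≤ (∫ x, log (∑ i, exp (t * F i x)) ∂μ) + C * a ^ 2 * t ^ 2 := by
    linarith
  calc S = exp (log S) := (exp_log hS0).symm
    _ ≤ _ := exp_le_exp.2 h8

end H588

end Vale.Agent.P245
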